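import Vale.Agent.P254.All

set_option autoImplicit false

namespace Vale.Agent.Results.P254.FreeSumsAndNPlusTwoVertices

open MeasureTheory Set
open Vale.Agent.P254

/-- Partial result on the strong isotropic constant conjecture: polytopes with `n + 2` vertices
(with the equality case), all bodies generated from segments by affine maps, products and free
sums about arbitrary common points, closure of the conjecture under these operations, and the
exact formula for free sums. -/
theorem result :
    -- (1) all convex hulls of `n + 2` points of `ℝⁿ`, with the equality case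
    (∀ (n : ℕ), 1 ≤ n → ∀ (v : Fin (n + 2) → Fin n → ℝ),
      (interior (convexHull ℝ (range v))).Nonempty → ∀ S : Set (Fin n → ℝ), IsSimplex S →
      iso (convexHull ℝ (range v)) ≤ iso S ∧
        (iso (convexHull ℝ (range v)) = iso S → IsSimplex (convexHull ℝ (range v)))) ∧
    -- (2) all bodies generated from segments
    (∀ (n : ℕ) (K : Set (Fin n → ℝ)), Gen (Fin n) K → Body K ∧
      ∀ S : Set (Fin n → ℝ), IsSimplex S → iso K ≤ iso S) ∧
    -- (3) closure under products (strict inequality) and free sums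
    (∀ (a b : ℕ), 1 ≤ a → 1 ≤ b → ∀ (K : Set (Fin a → ℝ)) (L : Set (Fin b → ℝ)), Body K → Body L →
      A K ≤ D a → A L ≤ D b → A (prd K L) < D (a + b) ∧
        (0 ∈ K → 0 ∈ L → A (fsum K L) ≤ D (a + b))) ∧
    -- (4) `D n = L_Δ ^ (2n)`
    (∀ (n : ℕ) (S : Set (Fin n → ℝ)), IsSimplex S → A S = D n) ∧
    -- (5) the exact formula for free sums and the range of `u`
    (∀ (a b : ℕ), 1 ≤ a → 1 ≤ b → ∀ (K : Set (Fin a → ℝ)) (L : Set (Fin b → ℝ)), Body K → Body L →
      0 ∈ K → 0 ∈ L →
      A (fsum K L) / D (a + b) = (A K / D a) * (A L / D b) *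
        (1 - (((a : ℝ) - u K / (a + 2)) / (a + 1)) * (((b : ℝ) - u L / (b + 2)) / (b + 1))) ∧
      0 ≤ u K ∧ u K ≤ (a : ℝ) * (a + 2)) := by
  obtain ⟨h1, h2, h3, h4⟩ := all_final
  refine ⟨h4, h3, h1, h2, ?_⟩
  intro a b ha hb K L hK hL h0 h0'
  have : Nonempty (Fin a) := ⟨⟨0, ha⟩⟩
  have : Nonempty (Fin b) := ⟨⟨0, hb⟩⟩
  have h5 := all_fs (Fin a) (Fin b) K L hK hL h0 h0'
  have h6 := star_ pos (Fin a) K hK h0
  simp only [Fintype.card_fin] at h5 h6
  exact ⟨h5, h6⟩

end Vale.Agent.Results.P254.FreeSumsAndNPlusTwoVertices
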