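import Vale.Agent.P254.All2

set_option autoImplicit false

namespace Vale.Agent.Results.P254.StrongFormFreeSumsReduction

open MeasureTheory Set
open Vale.Agent.P254

/-- Partial result on the strong isotropic constant conjecture: the full strong form (with the
equality case) for all polytopes with `n + 2` vertices and for all bodies generated from segments
by affine maps, products and free sums about arbitrary common points; permanence of the strong
form; the exact formula for free sums; and the reduction of the inequality in all dimensions to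
the dimension-free bound `L_K ≤ 1/e`, even only asymptotically. -/
theorem result :
    -- (1) all convex hulls of `n + 2` points of `ℝⁿ`, with the equality case
    (∀ (n : ℕ), 1 ≤ n → ∀ (v : Fin (n + 2) → Fin n → ℝ),
      (interior (convexHull ℝ (range v))).Nonempty → ∀ S : Set (Fin n → ℝ), IsSimplex S →
      iso (convexHull ℝ (range v)) ≤ iso S ∧
        (iso (convexHull ℝ (range v)) = iso S → IsSimplex (convexHull ℝ (range v)))) ∧
    -- (2) all bodies generated from segments, with the equality case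
    (∀ (n : ℕ) (K : Set (Fin n → ℝ)), Gen (Fin n) K → Body K ∧
      ∀ S : Set (Fin n → ℝ), IsSimplex S → iso K ≤ iso S ∧ (iso K = iso S → IsSimplex K)) ∧
    -- (3) permanence: products (strict inequality) and free sums (with the equality case)
    (∀ (a b : ℕ), 1 ≤ a → 1 ≤ b → ∀ (K : Set (Fin a → ℝ)) (L : Set (Fin b → ℝ)), Body K → Body L →
      A K ≤ D a → A L ≤ D b → A (prd K L) < D (a + b) ∧
        (0 ∈ K → 0 ∈ L → A (fsum K L) ≤ D (a + b) ∧
          ((A K = D a → IsSimplex K) → (A L = D b → IsSimplex L) → A (fsum K L) = D (a + b) →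
            ∀ T : (Fin a ⊕ Fin b → ℝ) ≃ᵃ[ℝ] (Fin (a + b) → ℝ), IsSimplex (T '' fsum K L)))) ∧
    -- (4) `D n = L_Δ ^ (2n)`
    (∀ (n : ℕ) (S : Set (Fin n → ℝ)), IsSimplex S → A S = D n) ∧
    -- (5) the exact formula for free sums and the range of `u`
    (∀ (a b : ℕ), 1 ≤ a → 1 ≤ b → ∀ (K : Set (Fin a → ℝ)) (L : Set (Fin b → ℝ)), Body K → Body L →
      0 ∈ K → 0 ∈ L →
      A (fsum K L) / D (a + b) = (A K / D a) * (A L / D b) *
        (1 - (((a : ℝ) - u K / (a + 2)) / (a + 1)) * (((b : ℝ) - u L / (b + 2)) / (b + 1))) ∧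
      0 ≤ u K ∧ u K ≤ (a : ℝ) * (a + 2)) ∧
    -- (6) the inequality in all dimensions is equivalent to its asymptotic form (`L_K ≤ 1/e + ε`
    -- along infinitely many dimensions) and to the dimension-free bound `L_K ≤ 1/e`
    ((∀ ε : ℝ, 0 < ε → ∀ N : ℕ, ∃ n : ℕ, N ≤ n ∧ ∀ K : Set (Fin n → ℝ), Body K →
      iso K ≤ Real.exp (-1) + ε) ↔
      (∀ n : ℕ, 1 ≤ n → ∀ K S : Set (Fin n → ℝ), Body K → IsSimplex S → iso K ≤ iso S)) ∧
    ((∀ n : ℕ, 1 ≤ n → ∀ K : Set (Fin n → ℝ), Body K → iso K ≤ Real.exp (-1)) ↔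
      (∀ n : ℕ, 1 ≤ n → ∀ K S : Set (Fin n → ℝ), Body K → IsSimplex S → iso K ≤ iso S)) ∧
    -- (7) the inequality passes from dimension `n + 1` to dimension `n`
    (∀ n : ℕ, 1 ≤ n → (∀ K S : Set (Fin (n + 1) → ℝ), Body K → IsSimplex S → iso K ≤ iso S) →
      ∀ K S : Set (Fin n → ℝ), Body K → IsSimplex S → iso K ≤ iso S) := by
  obtain ⟨h1, h2, h3, h4⟩ := all_final
  obtain ⟨r1, r2⟩ := Fin2X.reduction pos body aff all_fs num num2 all_pyr all_corn simp_
  refine ⟨h4, fun n K hK => ⟨(h3 n K hK).1, fun S hS => all_gen hK S hS⟩, ?_, h2, ?_, r1, r2,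
    fun n hn H K S hK hS => all_down hn H K S hK hS⟩
  · intro a b ha hb K L hK hL hA hB
    refine ⟨(h1 a b ha hb K L hK hL hA hB).1, fun h0 h0' =>
      ⟨(h1 a b ha hb K L hK hL hA hB).2 h0 h0', fun e1 e2 e T => ?_⟩⟩
    exact all_closure ha hb hK hL h0 h0' hA hB e1 e2 e T
  · intro a b ha hb K L hK hL h0 h0'
    have : Nonempty (Fin a) := ⟨⟨0, ha⟩⟩
    have : Nonempty (Fin b) := ⟨⟨0, hb⟩⟩
    have h5 := all_fs (Fin a) (Fin b) K L hK hL h0 h0'
    have h6 := all_star (Fin a) K hK h0
    simp only [Fintype.card_fin] at h5 h6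
    exact ⟨h5, h6⟩

end Vale.Agent.Results.P254.StrongFormFreeSumsReduction
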